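import Mathlib

namespace Vale.Agent.P153

/-- `Clus G S P x`: the vertex `x` can be reached from a vertex of the seed set `S` by a path of
`G` all of whose vertices (endpoints included) satisfy `P`. -/
inductive Clus {V : Type*} (G : SimpleGraph V) (S : Set V) (P : V → Prop) : V → Prop
  | base {a : V} : a ∈ S → P a → Clus G S P a
  | step {x y : V} : Clus G S P x → G.Adj x y → P y → Clus G S P y

/-- Admissible height functions: odd-integer valued, equal to `1` on `Ap`, to `-1` on `Am`, and
with `|h x - h y|` equal to `0` or `2` on every edge. -/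
def Admissible {V : Type*} (G : SimpleGraph V) (Ap Am : Set V) (h : V → ℤ) : Prop :=
  (∀ x, Odd (h x)) ∧ (∀ x ∈ Ap, h x = 1) ∧ (∀ x ∈ Am, h x = -1) ∧
    ∀ x y, G.Adj x y → |h x - h y| = 0 ∨ |h x - h y| = 2

/-- The cluster of positive heights attached to `Ap`. -/
def plusCluster {V : Type*} (G : SimpleGraph V) (Ap : Set V) (h : V → ℤ) : V → Prop :=
  Clus G Ap (fun v => 0 < h v)

/-- The cluster of negative heights attached to `Am`. -/
def minusCluster {V : Type*} (G : SimpleGraph V) (Am : Set V) (h : V → ℤ) : V → Prop :=
  Clus G Am (fun v => h v < 0)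

/-- The edges crossed by the interface: those joining the positive cluster of `Ap` to the
negative cluster of `Am`. -/
def Crossed {V : Type*} (G : SimpleGraph V) (Ap Am : Set V) (h : V → ℤ) (u v : V) : Prop :=
  (plusCluster G Ap h u ∧ minusCluster G Am h v) ∨ (minusCluster G Am h u ∧ plusCluster G Ap h v)

/-- `PlusSide G Ap Am h x`: the vertex `x` can be joined to `Ap` by a path of `G` that uses no
edge crossed by the interface. -/
inductive PlusSide {V : Type*} (G : SimpleGraph V) (Ap Am : Set V) (h : V → ℤ) : V → Prop
  | base {a : V} : a ∈ Ap → PlusSide G Ap Am h a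
  | step {x y : V} : PlusSide G Ap Am h x → G.Adj x y → ¬ Crossed G Ap Am h x y →
      PlusSide G Ap Am h y

/-- Combinatorial simple connectivity: every mod 2 cocycle of the triangle (clique) complex of `G`
is a coboundary. -/
def SimplyConnectedModTwo {V : Type*} (G : SimpleGraph V) : Prop :=
  ∀ ε : V → V → ZMod 2, (∀ u v, ε u v = ε v u) →
    (∀ a b c, G.Adj a b → G.Adj b c → G.Adj c a → ε a b + ε b c + ε c a = 0) →
    ∃ χ : V → ZMod 2, ∀ u v, G.Adj u v → ε u v = χ u + χ v

/-- `S` is connected inside itself: any two of its vertices are joined by a path staying in `S`. -/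
def ConnectedIn {V : Type*} (G : SimpleGraph V) (S : Set V) : Prop :=
  ∀ a ∈ S, ∀ b ∈ S, Clus G {a} (fun v => v ∈ S) b

end Vale.Agent.P153
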