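import Mathlib
import Vale.Agent.P153.Defs

open Finset

namespace Vale.Agent.P153

variable {V : Type*} {G : SimpleGraph V}

lemma Clus.prop {S : Set V} {P : V → Prop} {x : V} (h : Clus G S P x) : P x := by
  cases h with
  | base _ h => exact h
  | step _ _ h => exact h

lemma Clus.mono {S : Set V} {P Q : V → Prop} (hPQ : ∀ v, P v → Q v) {x : V}
    (h : Clus G S P x) : Clus G S Q x := by
  induction h with
  | base ha hp => exact Clus.base ha (hPQ _ hp)
  | step _ hadj hp ih => exact Clus.step ih hadj (hPQ _ hp)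

/-- sign-symmetric form of admissibility -/
def Adm (G : SimpleGraph V) (S T : Set V) (σ : ℤ) (h : V → ℤ) : Prop :=
  (∀ x, Odd (h x)) ∧ (∀ x ∈ S, h x = σ) ∧ (∀ x ∈ T, h x = -σ) ∧
    ∀ x y, G.Adj x y → |h x - h y| = 0 ∨ |h x - h y| = 2

def Cl (G : SimpleGraph V) (S : Set V) (σ : ℤ) (h : V → ℤ) : V → Prop :=
  Clus G S (fun v => 0 < σ * h v)

open Classical in
noncomputable def refl (G : SimpleGraph V) (S : Set V) (σ : ℤ) (h : V → ℤ) : V → ℤ :=
  fun v => if Cl G S σ h v then h v else -2 * σ - h v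

lemma boundary_val {S T : Set V} {σ : ℤ} (hσ : σ = 1 ∨ σ = -1) {h : V → ℤ}
    (hA : Adm G S T σ h) {x y : V} (hx : Cl G S σ h x) (hy : ¬ Cl G S σ h y) (hadj : G.Adj x y) :
    h x = σ ∧ h y = -σ := by
  have h1 : 0 < σ * h x := hx.prop
  have h2 : ¬ (0 < σ * h y) := fun h' => hy (Clus.step hx hadj h')
  have h3 := hA.2.2.2 x y hadj
  obtain ⟨k, hk⟩ := hA.1 y
  obtain ⟨k', hk'⟩ := hA.1 x
  have h4 : |h x - h y| ≤ 2 := by rcases h3 with h | h <;> omega
  rw [abs_le] at h4
  rcases hσ with rfl | rfl <;> constructor <;> omega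

lemma refl_adm {S T : Set V} {σ : ℤ} (hσ : σ = 1 ∨ σ = -1) {h : V → ℤ}
    (hA : Adm G S T σ h) : Adm G S T σ (refl G S σ h) := by
  refine ⟨?_, ?_, ?_, ?_⟩
  · intro x
    unfold refl
    split_ifs
    · exact hA.1 x
    · obtain ⟨k, hk⟩ := hA.1 x
      rcases hσ with rfl | rfl
      · exact ⟨-k - 2, by omega⟩
      · exact ⟨-k, by omega⟩
  · intro x hx
    have : Cl G S σ h x := by
      apply Clus.base hx
      rw [hA.2.1 x hx]
      rcases hσ with rfl | rfl <;> norm_num
    unfold refl
    rw [if_pos this, hA.2.1 x hx]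
  · intro x hx
    have : ¬ Cl G S σ h x := by
      intro hc
      have := hc.prop
      rw [hA.2.2.1 x hx] at this
      rcases hσ with rfl | rfl <;> norm_num at this
    unfold refl
    rw [if_neg this, hA.2.2.1 x hx]
    ring
  · intro x y hadj
    have h3 := hA.2.2.2 x y hadj
    unfold refl
    by_cases hx : Cl G S σ h x <;> by_cases hy : Cl G S σ h y
    · rw [if_pos hx, if_pos hy]; exact h3
    · obtain ⟨e1, e2⟩ := boundary_val hσ hA hx hy hadj
      rw [if_pos hx, if_neg hy]
      have : -2 * σ - h y = h y := by rw [e2]; ring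
      rw [this]; exact h3
    · obtain ⟨e1, e2⟩ := boundary_val hσ hA hy hx hadj.symm
      rw [if_neg hx, if_pos hy]
      have : -2 * σ - h x = h x := by rw [e2]; ring
      rw [this]; exact h3
    · rw [if_neg hx, if_neg hy]
      have : -2 * σ - h x - (-2 * σ - h y) = -(h x - h y) := by ring
      rw [this, abs_neg]; exact h3

lemma refl_cl {S T : Set V} {σ : ℤ} (hσ : σ = 1 ∨ σ = -1) {h : V → ℤ}
    (hA : Adm G S T σ h) (v : V) : Cl G S σ (refl G S σ h) v ↔ Cl G S σ h v := by
  constructor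
  · intro hv
    induction hv with
    | base ha _ =>
      apply Clus.base ha
      rw [hA.2.1 _ ha]
      rcases hσ with rfl | rfl <;> norm_num
    | @step x y _ hadj hp ih =>
      by_contra hy
      obtain ⟨_, e2⟩ := boundary_val hσ hA ih hy hadj
      have hy' : ¬ Cl G S σ h y := hy
      simp only [refl, if_neg hy', e2] at hp
      rcases hσ with rfl | rfl <;> norm_num at hp
  · intro hv
    induction hv with
    | @base a ha hp =>
      have hc : Cl G S σ h a := Clus.base ha hp
      apply Clus.base ha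
      simp only [refl, if_pos hc]
      exact hp
    | @step x y hx hadj hp ih =>
      have hc : Cl G S σ h y := Clus.step hx hadj hp
      apply Clus.step ih hadj
      simp only [refl, if_pos hc]
      exact hp

lemma refl_cl_eq {S T : Set V} {σ : ℤ} (hσ : σ = 1 ∨ σ = -1) {h : V → ℤ}
    (hA : Adm G S T σ h) : Cl G S σ (refl G S σ h) = Cl G S σ h :=
  funext fun v => propext (refl_cl hσ hA v)

lemma refl_refl {S T : Set V} {σ : ℤ} (hσ : σ = 1 ∨ σ = -1) {h : V → ℤ}
    (hA : Adm G S T σ h) : refl G S σ (refl G S σ h) = h := by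
  funext v
  by_cases hv : Cl G S σ h v
  · have hv' : Cl G S σ (refl G S σ h) v := (refl_cl hσ hA v).mpr hv
    rw [refl, if_pos hv', refl, if_pos hv]
  · have hv' : ¬ Cl G S σ (refl G S σ h) v := fun h' => hv ((refl_cl hσ hA v).mp h')
    rw [refl, if_neg hv', refl, if_neg hv]
    ring

open Classical in
/-- reflection identity: on any event determined by the cluster and on which `x` is outside the
cluster, the heights at `x` sum to `-σ` times the number of configurations -/
lemma sum_refl {S T : Set V} {σ : ℤ} (hσ : σ = 1 ∨ σ = -1) (H : Finset (V → ℤ))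
    (hH : ∀ h, h ∈ H ↔ Adm G S T σ h) (Φ : (V → Prop) → Prop) (x : V)
    (hΦ : ∀ h, Φ (Cl G S σ h) → ¬ Cl G S σ h x) :
    ∑ h ∈ H.filter (fun h => Φ (Cl G S σ h)), h x
      = -σ * ((H.filter (fun h => Φ (Cl G S σ h))).card : ℤ) := by
  set F := H.filter (fun h => Φ (Cl G S σ h)) with hF
  have hmem : ∀ h ∈ F, refl G S σ h ∈ F := by
    intro h hh
    rw [hF, mem_filter] at hh ⊢
    have hA := (hH h).mp hh.1
    exact ⟨(hH _).mpr (refl_adm hσ hA), by rw [refl_cl_eq hσ hA]; exact hh.2⟩
  have hinv : ∀ h ∈ F, refl G S σ (refl G S σ h) = h := by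
    intro h hh
    rw [hF, mem_filter] at hh
    exact refl_refl hσ ((hH h).mp hh.1)
  have h1 : ∑ h ∈ F, h x = ∑ h ∈ F, (-2 * σ - h x) := by
    apply sum_nbij' (refl G S σ) (refl G S σ) hmem hmem hinv hinv
    intro h hh
    have hh' := hh
    rw [hF, mem_filter] at hh'
    have hx : ¬ Cl G S σ h x := hΦ h hh'.2
    rw [refl, if_neg hx]
    ring
  rw [sum_sub_distrib, sum_const, nsmul_eq_mul] at h1
  linarith

end Vale.Agent.P153
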