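import Mathlib
import Vale.Agent.P153.Defs
import Vale.Agent.P153.Refl

open Finset

namespace Vale.Agent.P153

variable {V : Type*} {G : SimpleGraph V} {Ap Am : Set V} {h : V → ℤ}

lemma adm_iff_plus : Admissible G Ap Am h ↔ Adm G Ap Am 1 h := by
  simp [Admissible, Adm]

lemma adm_iff_minus : Admissible G Ap Am h ↔ Adm G Am Ap (-1) h := by
  simp only [Admissible, Adm, neg_neg]
  tauto

lemma cl_plus : Cl G Ap 1 h = plusCluster G Ap h := by
  unfold Cl plusCluster
  simp

lemma cl_minus : Cl G Am (-1) h = minusCluster G Am h := by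
  unfold Cl minusCluster
  simp

lemma plus_of_mem (hA : Admissible G Ap Am h) {a : V} (ha : a ∈ Ap) : plusCluster G Ap h a :=
  Clus.base ha (by rw [hA.2.1 a ha]; norm_num)

lemma minus_of_mem (hA : Admissible G Ap Am h) {a : V} (ha : a ∈ Am) : minusCluster G Am h a :=
  Clus.base ha (by rw [hA.2.2.1 a ha]; norm_num)

lemma not_plus_and_minus {v : V} (h1 : plusCluster G Ap h v) (h2 : minusCluster G Am h v) :
    False := by
  have a : 0 < h v := h1.prop
  have b : h v < 0 := h2.prop
  omega

lemma third_vertex (hA : Admissible G Ap Am h) {u v w : V} (hu : plusCluster G Ap h u)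
    (hv : minusCluster G Am h v) (huw : G.Adj u w) (hvw : G.Adj v w) :
    plusCluster G Ap h w ∨ minusCluster G Am h w := by
  obtain ⟨k, hk⟩ := hA.1 w
  rcases lt_or_ge 0 (h w) with hw | hw
  · exact Or.inl (Clus.step hu huw hw)
  · exact Or.inr (Clus.step hv hvw (by omega))

def Lset (G : SimpleGraph V) (Ap Am : Set V) (h : V → ℤ) : V → Prop :=
  Clus G Ap (fun v => ¬ minusCluster G Am h v)

def Rset (G : SimpleGraph V) (Ap Am : Set V) (h : V → ℤ) : V → Prop :=
  Clus G Am (fun v => ¬ plusCluster G Ap h v)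

lemma plus_sub_L {v : V} (hv : plusCluster G Ap h v) : Lset G Ap Am h v :=
  Clus.mono (fun w hw hm => by
    have h1 : h w < 0 := Clus.prop (P := fun v => h v < 0) hm
    have h2 : 0 < h w := hw
    omega) hv

lemma minus_sub_R {v : V} (hv : minusCluster G Am h v) : Rset G Ap Am h v :=
  Clus.mono (fun w hw hm => by
    have h1 : 0 < h w := Clus.prop (P := fun v => 0 < h v) hm
    have h2 : h w < 0 := hw
    omega) hv

lemma cover_step {y z : V} (hy : Lset G Ap Am h y ∨ Rset G Ap Am h y) (hadj : G.Adj y z) :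
    Lset G Ap Am h z ∨ Rset G Ap Am h z := by
  rcases hy with hy | hy
  · by_cases hz : minusCluster G Am h z
    · exact Or.inr (minus_sub_R hz)
    · exact Or.inl (Clus.step hy hadj hz)
  · by_cases hz : plusCluster G Ap h z
    · exact Or.inl (plus_sub_L hz)
    · exact Or.inr (Clus.step hy hadj hz)

lemma cover_walk {u v : V} (p : G.Walk u v) (hu : Lset G Ap Am h u ∨ Rset G Ap Am h u) :
    Lset G Ap Am h v ∨ Rset G Ap Am h v := by
  induction p with
  | nil => exact hu
  | cons hadj _ ih => exact ih (cover_step hu hadj)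

lemma cover (hconn : G.Connected) (hA : Admissible G Ap Am h) {a0 : V} (ha0 : a0 ∈ Ap) (x : V) :
    Lset G Ap Am h x ∨ Rset G Ap Am h x := by
  obtain ⟨p⟩ := hconn.preconnected a0 x
  exact cover_walk p (Or.inl (plus_sub_L (plus_of_mem hA ha0)))

open Classical in
noncomputable def ind (p : Prop) : ZMod 2 := if p then 1 else 0

lemma ind_pos {p : Prop} (h : p) : ind p = 1 := by
  unfold ind; rw [if_pos h]

lemma ind_neg {p : Prop} (h : ¬ p) : ind p = 0 := by
  unfold ind; rw [if_neg h]

lemma tri (pa ma pb mb pc mc : Prop)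
    (ha : ¬(pa ∧ ma)) (hb : ¬(pb ∧ mb)) (hc : ¬(pc ∧ mc))
    (h1 : pa → mb → pc ∨ mc) (h2 : ma → pb → pc ∨ mc) (h3 : pb → mc → pa ∨ ma)
    (h4 : mb → pc → pa ∨ ma) (h5 : pc → ma → pb ∨ mb) (h6 : mc → pa → pb ∨ mb) :
    ind ((pa ∧ mb) ∨ (ma ∧ pb)) + ind ((pb ∧ mc) ∨ (mb ∧ pc)) + ind ((pc ∧ ma) ∨ (mc ∧ pa)) = 0 := by
  unfold ind
  by_cases pa <;> by_cases ma <;> by_cases pb <;> by_cases mb <;> by_cases pc <;> by_cases mc <;>
    simp_all <;> decide

lemma zmod2_add_eq_zero : ∀ s t : ZMod 2, s + t = 0 ↔ s = t := by decide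
lemma zmod2_add_eq_one : ∀ s t : ZMod 2, s + t = 1 ↔ s ≠ t := by decide

/-- under simple connectivity, the plus side is `Lset` and its complement is `Rset` -/
lemma side_char (hconn : G.Connected) (hsc : SimplyConnectedModTwo G)
    (hAp : ConnectedIn G Ap) (hAm : ConnectedIn G Am)
    {a0 b0 : V} (ha0 : a0 ∈ Ap) (hb0 : b0 ∈ Am) (hab : G.Adj a0 b0)
    (hA : Admissible G Ap Am h) (x : V) :
    (PlusSide G Ap Am h x ↔ Lset G Ap Am h x) ∧ (¬ PlusSide G Ap Am h x ↔ Rset G Ap Am h x) := by
  obtain ⟨χ, hχ⟩ := hsc (fun u v => ind (Crossed G Ap Am h u v))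
    (by
      intro u v
      have : Crossed G Ap Am h u v ↔ Crossed G Ap Am h v u := by
        unfold Crossed; tauto
      simp only [this])
    (by
      intro a b c hab hbc hca
      unfold Crossed
      apply tri
      · exact fun h => not_plus_and_minus h.1 h.2
      · exact fun h => not_plus_and_minus h.1 h.2
      · exact fun h => not_plus_and_minus h.1 h.2
      · exact fun h1 h2 => third_vertex hA h1 h2 hca.symm hbc
      · exact fun h1 h2 => third_vertex hA h2 h1 hbc hca.symm
      · exact fun h1 h2 => third_vertex hA h1 h2 hab.symm hca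
      · exact fun h1 h2 => third_vertex hA h2 h1 hca hab.symm
      · exact fun h1 h2 => third_vertex hA h1 h2 hbc.symm hab
      · exact fun h1 h2 => third_vertex hA h2 h1 hab hbc.symm)
  have hnc : ∀ u v, G.Adj u v → ¬ Crossed G Ap Am h u v → χ u = χ v := by
    intro u v huv hc
    have := hχ u v huv
    rw [ind_neg hc] at this
    exact (zmod2_add_eq_zero _ _).mp this.symm
  have hne : χ a0 ≠ χ b0 := by
    have := hχ a0 b0 hab
    have hc : Crossed G Ap Am h a0 b0 := Or.inl ⟨plus_of_mem hA ha0, minus_of_mem hA hb0⟩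
    rw [ind_pos hc] at this
    exact (zmod2_add_eq_one _ _).mp this.symm
  have hApχ : ∀ a ∈ Ap, χ a = χ a0 := by
    intro a ha
    have hc := hAp a0 ha0 a ha
    induction hc with
    | base hb' _ => rw [Set.mem_singleton_iff.mp hb']
    | @step y z hy hadj hz ih =>
      have hyA : y ∈ Ap := hy.prop
      rw [← ih hyA]
      symm
      apply hnc y z hadj
      rintro (⟨_, h2⟩ | ⟨h1, _⟩)
      · exact not_plus_and_minus (plus_of_mem hA hz) h2
      · exact not_plus_and_minus (plus_of_mem hA hyA) h1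
  have hAmχ : ∀ b ∈ Am, χ b = χ b0 := by
    intro b hb
    have hc := hAm b0 hb0 b hb
    induction hc with
    | base hb' _ => rw [Set.mem_singleton_iff.mp hb']
    | @step y z hy hadj hz ih =>
      have hyA : y ∈ Am := hy.prop
      rw [← ih hyA]
      symm
      apply hnc y z hadj
      rintro (⟨h1, _⟩ | ⟨_, h2⟩)
      · exact not_plus_and_minus h1 (minus_of_mem hA hyA)
      · exact not_plus_and_minus h2 (minus_of_mem hA hz)
  have hPχ : ∀ y, PlusSide G Ap Am h y → χ y = χ a0 := by
    intro y hy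
    induction hy with
    | base ha => exact hApχ _ ha
    | step _ hadj hc ih => rw [← ih]; exact (hnc _ _ hadj hc).symm
  have hRχ : ∀ y, Rset G Ap Am h y → χ y = χ b0 := by
    intro y hy
    induction hy with
    | base hb _ => exact hAmχ _ hb
    | @step y z hy hadj hz ih =>
      rw [← ih]
      symm
      apply hnc y z hadj
      rintro (⟨h1, _⟩ | ⟨_, h2⟩)
      · exact hy.prop h1
      · exact hz h2
  have hLP : ∀ y, Lset G Ap Am h y → PlusSide G Ap Am h y := by
    intro y hy
    induction hy with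
    | base ha _ => exact PlusSide.base ha
    | @step y z hy hadj hz ih =>
      apply PlusSide.step ih hadj
      rintro (⟨_, h2⟩ | ⟨h1, _⟩)
      · exact hz h2
      · exact hy.prop h1
  have hPR : PlusSide G Ap Am h x → ¬ Rset G Ap Am h x := by
    intro h1 h2
    exact hne ((hPχ x h1).symm.trans (hRχ x h2))
  have hcov := cover hconn hA ha0 x
  constructor
  · constructor
    · intro h1
      rcases hcov with h2 | h2
      · exact h2
      · exact absurd h2 (hPR h1)
    · exact hLP x
  · constructor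
    · intro h1
      rcases hcov with h2 | h2
      · exact absurd (hLP x h2) h1
      · exact h2
    · intro h1 h2
      exact hPR h2 h1

lemma lip_walk (hA : Admissible G Ap Am h) {u v : V} (p : G.Walk u v) :
    |h v - h u| ≤ 2 * p.length := by
  induction p with
  | nil => simp
  | @cons u w v hadj p ih =>
    have h1 := hA.2.2.2 u w hadj
    have h2 : |h u - h w| ≤ 2 := by rcases h1 with h | h <;> omega
    rw [SimpleGraph.Walk.length_cons]
    push_cast
    rw [abs_le] at *
    constructor <;> linarith [ih.1, ih.2, h2.1, h2.2]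

open Classical in
lemma exists_finset [Fintype V] (hconn : G.Connected) {a0 : V} (ha0 : a0 ∈ Ap) :
    ∃ H : Finset (V → ℤ), ∀ h, h ∈ H ↔ Admissible G Ap Am h := by
  refine ⟨(Fintype.piFinset (fun x => Icc (1 - 2 * (G.dist a0 x : ℤ)) (1 + 2 * (G.dist a0 x : ℤ)))).filter
    (fun h => Admissible G Ap Am h), ?_⟩
  intro h
  rw [mem_filter]
  constructor
  · exact fun h => h.2
  · intro hA
    refine ⟨?_, hA⟩
    rw [Fintype.mem_piFinset]
    intro x
    obtain ⟨p, hp⟩ := (hconn.preconnected a0 x).exists_walk_length_eq_dist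
    have := lip_walk hA p
    rw [hp, hA.2.1 a0 ha0, abs_le] at this
    rw [mem_Icc]
    constructor <;> linarith [this.1, this.2]

end Vale.Agent.P153
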